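import Vale.Agent.P063.Final

/-!
The Friedgut-Kalai threshold width conjecture: for every uniformity `r ≥ 2` and every
`0 < ε < 1/2` there is `C` such that every nontrivial increasing property of `r`-uniform
hypergraphs on `n ≥ r` labelled vertices has `ε`-threshold width at most
`C * (log n) ^ (-(r / (r - 1)))`. For `r = 2` the exponent is `-2`.

A family of hypergraphs is a finset `P` of finsets of `r`-subsets of `Fin n`; its `p`-measure is
the sum over `H ∈ P` of `p ^ |H| * (1 - p) ^ (binom(n, r) - |H|)`, and the two infima are the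
critical probabilities `p_{1 - ε}` and `p_ε`.
-/

theorem Vale.Agent.Results.P063.FriedgutKalaiWidth.result :
    ∀ (r : ℕ), 2 ≤ r → ∀ ε : ℝ, 0 < ε → ε < 1 / 2 → ∃ C : ℝ, ∀ n : ℕ, r ≤ n →
      ∀ P : Finset (Finset (Finset (Fin n))),
        (∀ H ∈ P, H ⊆ Finset.powersetCard r Finset.univ) →
        (∀ σ : Equiv.Perm (Fin n), ∀ H ∈ P, H.image (Finset.map σ.toEmbedding) ∈ P) →
        (∀ H ∈ P, ∀ H', H ⊆ H' → H' ⊆ Finset.powersetCard r Finset.univ → H' ∈ P) →
        P.Nonempty →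
        (∃ H, H ⊆ Finset.powersetCard r Finset.univ ∧ H ∉ P) →
        sInf {p : ℝ | p ∈ Set.Icc (0 : ℝ) 1 ∧
            1 - ε ≤ ∑ H ∈ P, p ^ H.card * (1 - p) ^ (n.choose r - H.card)}
          - sInf {p : ℝ | p ∈ Set.Icc (0 : ℝ) 1 ∧
            ε ≤ ∑ H ∈ P, p ^ H.card * (1 - p) ^ (n.choose r - H.card)}
          ≤ C * Real.log n ^ (-((r : ℝ) / ((r : ℝ) - 1))) :=
  Vale.Agent.P063.final_width
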